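import Vale.Agent.P062.Defs
import Vale.Agent.P062.Win

/-!
# Snaky is a winner: Maker wins the achievement game for Snaky in the plane, without handicap
-/

namespace Vale.Agent.Results.P062.SnakyWinner

open Vale.Agent.P062

/-- Maker has a winning strategy in the Snaky achievement game on the initially empty board. -/
theorem result : ∃ σ : List Cell → Cell, IsWinningStrategy σ := maker_wins

end Vale.Agent.Results.P062.SnakyWinner
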